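import Mathlib

/-!
Degenerate graphs: orientation with bounded out-degree together with a proper colouring.
-/

set_option autoImplicit false

namespace Crest.Agent.R52G

open Finset

/-- Orientation and greedy colouring of a degenerate graph. -/
theorem exists_orient {V : Type*} [DecidableEq V] (G : SimpleGraph V) [DecidableRel G.Adj] (d : ℕ)
    (hdeg : ∀ U : Finset V, U.Nonempty → ∃ u ∈ U, (U.filter (G.Adj u)).card ≤ d) (U : Finset V) :
    ∃ (N : V → Finset V) (c : V → ℕ), (∀ a, (N a).card ≤ d) ∧ (∀ a, ∀ b ∈ N a, G.Adj a b) ∧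
      (∀ a ∈ U, ∀ b ∈ U, G.Adj a b → b ∈ N a ∨ a ∈ N b) ∧ (∀ a, c a ≤ d) ∧
      (∀ a ∈ U, ∀ b ∈ U, G.Adj a b → c a ≠ c b) := by
  induction U using Finset.strongInduction with
  | H U ih =>
    rcases U.eq_empty_or_nonempty with rfl | hU
    · exact ⟨fun _ => ∅, fun _ => 0, by simp, by simp, by simp, by simp, by simp⟩
    obtain ⟨u, hu, hud⟩ := hdeg U hU
    obtain ⟨N, c, h1, h2, h3, h4, h5⟩ := ih (U.erase u) (Finset.erase_ssubset hu)
    obtain ⟨k, hk, hk'⟩ : ∃ k ∈ Finset.range (d + 1), k ∉ (U.filter (G.Adj u)).image c := by
      apply Finset.exists_mem_notMem_of_card_lt_card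
      rw [Finset.card_range]
      exact Nat.lt_succ_of_le (Finset.card_image_le.trans hud)
    refine ⟨Function.update N u (U.filter (G.Adj u)), Function.update c u k, ?_, ?_, ?_, ?_, ?_⟩
    · intro a
      by_cases ha : a = u
      · subst ha; simpa using hud
      · rw [Function.update_of_ne ha]; exact h1 a
    · intro a b hb
      by_cases ha : a = u
      · subst ha
        rw [Function.update_self] at hb
        exact (Finset.mem_filter.1 hb).2
      · rw [Function.update_of_ne ha] at hb; exact h2 a b hb
    · intro a ha b hb hab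
      by_cases hau : a = u
      · subst hau
        left; rw [Function.update_self]; exact Finset.mem_filter.2 ⟨hb, hab⟩
      by_cases hbu : b = u
      · subst hbu
        right; rw [Function.update_self]; exact Finset.mem_filter.2 ⟨ha, hab.symm⟩
      rw [Function.update_of_ne hau, Function.update_of_ne hbu]
      exact h3 a (Finset.mem_erase.2 ⟨hau, ha⟩) b (Finset.mem_erase.2 ⟨hbu, hb⟩) hab
    · intro a
      by_cases ha : a = u
      · subst ha
        rw [Function.update_self]
        exact Nat.lt_succ_iff.1 (Finset.mem_range.1 hk)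
      · rw [Function.update_of_ne ha]; exact h4 a
    · intro a ha b hb hab
      by_cases hau : a = u
      · subst hau
        rw [Function.update_self, Function.update_of_ne hab.ne.symm]
        intro h
        exact hk' (Finset.mem_image.2 ⟨b, Finset.mem_filter.2 ⟨hb, hab⟩, h.symm⟩)
      by_cases hbu : b = u
      · subst hbu
        rw [Function.update_self, Function.update_of_ne hab.ne]
        intro h
        exact hk' (Finset.mem_image.2 ⟨a, Finset.mem_filter.2 ⟨ha, hab.symm⟩, h⟩)
      rw [Function.update_of_ne hau, Function.update_of_ne hbu]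
      exact h5 a (Finset.mem_erase.2 ⟨hau, ha⟩) b (Finset.mem_erase.2 ⟨hbu, hb⟩) hab

/-- Numbering the elements of each set of a family. -/
theorem exists_idx {V : Type*} [DecidableEq V] (N : V → Finset V) :
    ∃ idx : V → V → ℕ, ∀ a, Set.InjOn (idx a) (N a) ∧ ∀ b ∈ N a, idx a b < (N a).card := by
  refine ⟨fun a b => if h : b ∈ N a then ((N a).equivFin ⟨b, h⟩).val else 0, fun a => ⟨?_, ?_⟩⟩
  · intro b hb b' hb' h
    simp only [Finset.mem_coe] at hb hb'
    simp only [hb, hb', dite_true] at h
    simpa using (N a).equivFin.injective (Fin.ext h)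
  · intro b hb
    simp only [hb, dite_true]
    exact Fin.is_lt _

/-- Blocks of consecutive numbers. -/
theorem card_filter_div_le {V : Type*} (s : Finset V) (f : V → ℕ) (hf : Set.InjOn f s) (D k : ℕ)
    (hD : 0 < D) : (s.filter (fun b => f b / D = k)).card ≤ D := by
  have : (s.filter (fun b => f b / D = k)).card ≤ (Finset.range D).card := by
    refine Finset.card_le_card_of_injOn (fun b => f b % D) ?_ ?_
    · intro b _
      simpa using Nat.mod_lt _ hD
    · intro b hb b' hb' h
      simp only [Finset.coe_filter, Set.mem_ofPred_eq] at hb hb'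
      refine hf hb.1 hb'.1 ?_
      have h1 := Nat.div_add_mod (f b) D
      have h2 := Nat.div_add_mod (f b') D
      simp only at h
      rw [hb.2] at h1
      rw [hb'.2] at h2
      omega
  simpa using this

end Crest.Agent.R52G
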