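import Crest.Agent.R52.Defs
import Crest.Agent.R52.Round

/-!
Spreadness of the uniform copy of a graph, and its structural consequences.
-/

set_option autoImplicit false

namespace Crest.Agent.R52G

open Finset Crest.CombinatoricsR.RandomGraph Crest.Agent.R52

variable {n : ℕ}

/-- The uniformly random relabelling of the edge set `E` is `r`-spread. -/
def Spread (E : Finset (EdgeSlot n)) (r : ℝ) : Prop :=
  ∀ T : Finset (EdgeSlot n), T.Nonempty →
    ((Finset.univ.filter (fun π : Equiv.Perm (Fin n) => ∀ e ∈ T, act π e ∈ E)).card : ℝ) ≤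
      n.factorial * r ^ T.card

/-- Non-smallness gives spreadness. -/
theorem spread_of_notSmall (E : Finset (EdgeSlot n)) (F : Finset (Finset (EdgeSlot n)))
    (hF : ∀ A ∈ F, ∃ σ : Equiv.Perm (Fin n), ∀ e ∈ E, act σ e ∈ A) (p : ℝ) (hp : 0 ≤ p)
    (hns : ∀ G : Finset (Finset (EdgeSlot n)), (∀ A ∈ F, ∃ S ∈ G, S ⊆ A) →
      1 / 2 < ∑ S ∈ G, p ^ S.card) : Spread E (65536 * p) := by
  classical
  intro T hT
  by_contra hcon
  push Not at hcon
  set P := Finset.univ.filter (fun π : Equiv.Perm (Fin n) => ∀ e ∈ T, act π e ∈ E) with hP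
  have hM : (0 : ℝ) < P.card := lt_of_le_of_lt (by positivity) hcon
  let g : Finset (EdgeSlot n) → ℝ := fun S =>
    ((Finset.univ.filter (fun π : Equiv.Perm (Fin n) => T.image (act π) = S)).card : ℝ) / P.card
  have hsum : ∀ (𝒮 : Finset (Finset (EdgeSlot n))) (f : Finset (EdgeSlot n) → ℝ),
      ∑ S ∈ 𝒮, g S * f S = (∑ π ∈ Finset.univ.filter
        (fun π : Equiv.Perm (Fin n) => T.image (act π) ∈ 𝒮), f (T.image (act π))) / P.card := by
    intro 𝒮 f
    rw [← Finset.sum_fiberwise_of_maps_to (g := fun π : Equiv.Perm (Fin n) => T.image (act π))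
      (t := 𝒮) (fun π hπ => (Finset.mem_filter.1 hπ).2), Finset.sum_div]
    refine Finset.sum_congr rfl fun S hS => ?_
    rw [Finset.sum_congr rfl (g := fun _ => f S) (fun π hπ => by rw [(Finset.mem_filter.1 hπ).2]),
      Finset.sum_const, nsmul_eq_mul, Finset.filter_filter]
    have : Finset.univ.filter (fun π : Equiv.Perm (Fin n) =>
        T.image (act π) ∈ 𝒮 ∧ T.image (act π) = S) =
        Finset.univ.filter (fun π : Equiv.Perm (Fin n) => T.image (act π) = S) := by
      refine Finset.filter_congr fun π _ => ⟨fun h => h.2, fun h => ⟨h ▸ hS, h⟩⟩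
    rw [this]
    simp only [g]
    ring
  obtain ⟨G, hG, hc⟩ := round_cover F (32768 * p) (by positivity) g
    (fun S => by positivity) (by
      intro A hA
      obtain ⟨σ, hσ⟩ := hF A hA
      have h1 := hsum A.powerset (fun _ => 1)
      simp only [mul_one] at h1
      rw [h1, le_div_iff₀ hM, one_mul, Finset.sum_const, nsmul_eq_mul, mul_one, Nat.cast_le]
      refine Finset.card_le_card_of_injOn (fun π => σ * π) ?_ ?_
      · intro π hπ
        simp only [hP, Finset.coe_filter, Finset.mem_univ, true_and, Set.mem_ofPred_eq,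
          Finset.mem_powerset] at hπ ⊢
        intro e he
        obtain ⟨e', he', rfl⟩ := Finset.mem_image.1 he
        rw [act_mul]
        exact hσ _ (hπ e' he')
      · intro π _ π' _ h
        exact mul_left_cancel h) (by
      rw [hsum Finset.univ (fun S => (32768 * p) ^ S.card)]
      simp only [Finset.mem_univ, Finset.filter_true,
        Finset.card_image_of_injective _ (act_injective _), Finset.sum_const, Finset.card_univ,
        Fintype.card_perm, Fintype.card_fin, nsmul_eq_mul]
      rw [div_le_iff₀ hM]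
      have h2 : (2 : ℝ) ≤ 2 ^ T.card := by
        have := hT.card_pos
        calc (2 : ℝ) = 2 ^ 1 := by norm_num
          _ ≤ 2 ^ T.card := pow_le_pow_right₀ (by norm_num) this
      have h3 : (65536 * p) ^ T.card = 2 ^ T.card * (32768 * p) ^ T.card := by
        rw [← mul_pow]; ring_nf
      rw [h3] at hcon
      have h4 : (0 : ℝ) ≤ n.factorial * (32768 * p) ^ T.card := by positivity
      nlinarith) p hp le_rfl
  exact absurd (hns G hG) (not_lt.2 hc)

/-- Counting form of spreadness. -/
theorem Spread.count {E : Finset (EdgeSlot n)} {r : ℝ} (h : Spread E r)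
    (T : Finset (EdgeSlot n)) (hT : T.Nonempty) {Y : Type*} [DecidableEq Y] (Ys : Finset Y)
    (φ : Equiv.Perm (Fin n) → Y) (hφ : ∀ π, φ π ∈ Ys)
    (hfib : ∀ π π', φ π = φ π' → ∀ e ∈ T, act (π⁻¹ * π') e ∈ E) :
    1 ≤ Ys.card * r ^ T.card := by
  classical
  set P := Finset.univ.filter (fun π : Equiv.Perm (Fin n) => ∀ e ∈ T, act π e ∈ E) with hP
  have h1 : (Finset.univ : Finset (Equiv.Perm (Fin n))).card ≤ P.card * Ys.card := by
    refine Finset.card_le_mul_card_image_of_maps_to (f := φ) (fun π _ => hφ π) _ ?_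
    intro y _
    rcases (Finset.univ.filter (fun π => φ π = y)).eq_empty_or_nonempty with h0 | ⟨π₀, h0⟩
    · rw [h0]; simp
    · refine Finset.card_le_card_of_injOn (fun π => π₀⁻¹ * π) ?_ ?_
      · intro π hπ
        simp only [hP, Finset.coe_filter, Finset.mem_univ, true_and, Set.mem_ofPred_eq] at hπ ⊢
        exact hfib _ _ (by rw [hπ, (Finset.mem_filter.1 h0).2])
      · intro π _ π' _ h
        exact mul_left_cancel h
  rw [Finset.card_univ, Fintype.card_perm, Fintype.card_fin] at h1
  have h2 := h T hT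
  have h3 : (n.factorial : ℝ) ≤ P.card * Ys.card := by exact_mod_cast h1
  have h4 : (0 : ℝ) < n.factorial := by exact_mod_cast n.factorial_pos
  have h5 : (n.factorial : ℝ) * 1 ≤ n.factorial * (Ys.card * r ^ T.card) := by
    calc (n.factorial : ℝ) * 1 ≤ P.card * Ys.card := by linarith
      _ ≤ (n.factorial * r ^ T.card) * Ys.card := by gcongr
      _ = _ := by ring
  exact le_of_mul_le_mul_left h5 h4

/-- The edge slots of a graph. -/
noncomputable def slots (G : SimpleGraph (Fin n)) : Finset (EdgeSlot n) := by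
  classical exact Finset.univ.filter (fun e => e.1 ∈ G.edgeSet)

theorem slot_mem_slots {G : SimpleGraph (Fin n)} {a b : Fin n} (h : a ≠ b) :
    slot a b h ∈ slots G ↔ G.Adj a b := by
  simp [slots, slot]

/-- Density bound. -/
theorem Spread.dens {G : SimpleGraph (Fin n)} [DecidableRel G.Adj] {r : ℝ}
    (h : Spread (slots G) r) (hr : 0 ≤ r) (hr1 : r ≤ 1) (d : ℕ) (hd : n * r ^ d < 1)
    (U : Finset (Fin n)) (hU : U.Nonempty) : ∃ u ∈ U, (U.filter (G.Adj u)).card ≤ 2 * d := by
  classical
  by_contra hcon
  push Not at hcon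
  let P : Finset (Fin n × Fin n) := (U ×ˢ U).filter (fun x => G.Adj x.1 x.2)
  have hP : (2 * d) * U.card < P.card := by
    have : P.card = ∑ u ∈ U, (U.filter (G.Adj u)).card := by
      simp only [P, Finset.card_filter, Finset.sum_product]
    rw [this, mul_comm, ← smul_eq_mul, ← Finset.sum_const]
    exact Finset.sum_lt_sum_of_nonempty hU hcon
  let T : Finset (EdgeSlot n) := Finset.univ.filter (fun e => e.1 ∈ G.edgeSet ∧ ∀ v ∈ e.1, v ∈ U)
  have hPT : P.card ≤ 2 * T.card := by
    have h1 : P.card ≤ 2 * (T.image Subtype.val).card := by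
      refine Finset.card_le_mul_card_image_of_maps_to (f := fun x => s(x.1, x.2)) ?_ _ ?_
      · intro x hx
        simp only [P, Finset.mem_filter, Finset.mem_product] at hx
        refine Finset.mem_image.2 ⟨slot x.1 x.2 hx.2.ne, ?_, rfl⟩
        simp only [T, slot, Finset.mem_filter, Finset.mem_univ, true_and, SimpleGraph.mem_edgeSet,
          Sym2.mem_iff]
        refine ⟨hx.2, ?_⟩
        rintro v (rfl | rfl)
        · exact hx.1.1
        · exact hx.1.2
      · intro z _
        induction z using Sym2.ind with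
        | _ a b =>
          refine le_trans (Finset.card_le_card (t := {(a, b), (b, a)}) ?_) Finset.card_le_two
          intro x hx
          have := (Finset.mem_filter.1 hx).2
          simp only [Sym2.eq_iff] at this
          simp only [Finset.mem_insert, Finset.mem_singleton, Prod.ext_iff]
          tauto
    exact h1.trans (Nat.mul_le_mul_left _ Finset.card_image_le)
  have hT : d * U.card < T.card := by nlinarith
  have hTne : T.Nonempty := Finset.card_pos.1 (by omega)
  have hc := h.count T hTne (Finset.univ : Finset (U → Fin n)) (fun π u => π u)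
    (fun _ => Finset.mem_univ _) (by
      intro π π' hππ e he
      obtain ⟨z, hz⟩ := e
      induction z using Sym2.ind with
      | _ a b =>
        simp only [T, Finset.mem_filter, Finset.mem_univ, true_and, SimpleGraph.mem_edgeSet,
          Sym2.mem_iff] at he
        have ha : π a = π' a := congrFun hππ ⟨a, he.2 a (Or.inl rfl)⟩
        have hb : π b = π' b := congrFun hππ ⟨b, he.2 b (Or.inr rfl)⟩
        simp [slots, act, ← ha, ← hb, he.1])
  simp only [Finset.card_univ, Fintype.card_fun, Fintype.card_fin, Fintype.card_coe] at hc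
  push_cast at hc
  have h1 : r ^ T.card ≤ (r ^ d) ^ U.card := by
    rw [← pow_mul]; exact pow_le_pow_of_le_one hr hr1 hT.le
  have h2 : ((n : ℝ) * r ^ d) ^ U.card < 1 :=
    pow_lt_one₀ (by positivity) hd hU.card_pos.ne'
  rw [mul_pow] at h2
  have h3 : (n : ℝ) ^ U.card * r ^ T.card ≤ (n : ℝ) ^ U.card * (r ^ d) ^ U.card := by gcongr
  linarith

/-- Codegree bound. -/
theorem Spread.codeg {G : SimpleGraph (Fin n)} {r : ℝ}
    (h : Spread (slots G) r) (hr : 0 ≤ r) (I J : Finset (Fin n)) (hI : I.Nonempty)
    (hJ : J.Nonempty) (hIJ : ∀ a ∈ J, ∀ b ∈ I, G.Adj a b) :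
    1 ≤ (n : ℝ) ^ I.card * (Real.exp 1 * n * r ^ I.card / J.card) ^ J.card := by
  classical
  let f : J × I → EdgeSlot n := fun x => slot x.1 x.2 (hIJ _ x.1.2 _ x.2.2).ne
  have hf : Function.Injective f := by
    rintro ⟨a, b⟩ ⟨a', b'⟩ hab
    simp only [f, slot, Subtype.mk.injEq, Sym2.eq_iff] at hab
    rcases hab with ⟨h1, h2⟩ | ⟨h1, h2⟩
    · rw [Subtype.ext h1, Subtype.ext h2]
    · exact absurd h1 (hIJ _ a.2 _ b'.2).ne
  have hcard : (Finset.univ.image f).card = I.card * J.card := by
    rw [Finset.card_image_of_injective _ hf]; simp [mul_comm]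
  have hc := h.count (Finset.univ.image f) (Finset.card_pos.1 (by
      rw [hcard]; exact Nat.mul_pos hI.card_pos hJ.card_pos))
    ((Finset.univ : Finset (I → Fin n)) ×ˢ (Finset.univ : Finset (Fin n)).powersetCard J.card)
    (fun π => (fun u => π u, J.image π)) (fun π => by
      simp [Finset.card_image_of_injective _ π.injective]) (by
      intro π π' hππ e he
      obtain ⟨⟨a, b⟩, -, rfl⟩ := Finset.mem_image.1 he
      simp only [Prod.mk.injEq] at hππ
      have hb : π b = π' b := congrFun hππ.1 b
      have ha : π' a ∈ J.image π := hππ.2 ▸ Finset.mem_image_of_mem _ a.2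
      obtain ⟨a', ha', haa⟩ := Finset.mem_image.1 ha
      simp only [f, act_slot, slot_mem_slots, Equiv.Perm.coe_mul, Function.comp_apply, ← hb, ← haa,
        Equiv.Perm.coe_inv, Equiv.symm_apply_apply]
      exact hIJ _ ha' _ b.2)
  rw [hcard] at hc
  simp only [Finset.card_product, Finset.card_univ, Fintype.card_fun, Fintype.card_fin,
    Fintype.card_coe, Finset.card_powersetCard] at hc
  push_cast at hc
  have hJ0 : (0 : ℝ) < J.card := by exact_mod_cast hJ.card_pos
  have h1 : (n.choose J.card : ℝ) ≤ (Real.exp 1 * n / J.card) ^ J.card := by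
    have h2 : (n.choose J.card : ℝ) ≤ (n : ℝ) ^ J.card / J.card.factorial :=
      Nat.choose_le_pow_div _ _
    have h3 := Real.pow_div_factorial_le_exp (J.card : ℝ) hJ0.le J.card
    have h4 : (0 : ℝ) < J.card.factorial := by exact_mod_cast J.card.factorial_pos
    rw [div_le_iff₀ h4] at h3
    refine h2.trans ?_
    rw [div_pow, mul_pow, ← Real.exp_nat_mul, mul_one, div_le_div_iff₀ h4 (by positivity)]
    calc (n : ℝ) ^ J.card * (J.card : ℝ) ^ J.card
        ≤ (n : ℝ) ^ J.card * (Real.exp J.card * J.card.factorial) := by gcongr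
      _ = _ := by ring
  calc (1 : ℝ) ≤ _ := hc
    _ ≤ (n : ℝ) ^ I.card * (Real.exp 1 * n / J.card) ^ J.card * r ^ (I.card * J.card) := by gcongr
    _ = _ := by rw [pow_mul, mul_assoc, ← mul_pow]; congr 2; ring

end Crest.Agent.R52G
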