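import Crest.Agent.R52.Multilayer
import Crest.Agent.R52.StarForest
import Crest.Agent.R52G.Spread
import Crest.Agent.R52G.Degen

/-!
Decomposition of a spread graph into a bounded number of pieces that embed easily.
-/

set_option autoImplicit false

namespace Crest.Agent.R52G

open Finset Crest.CombinatoricsR.RandomGraph Crest.Agent.R52

variable {n : ℕ}

theorem failAvg_anti {a b : ℝ} (ha : 0 ≤ a) (hab : a ≤ b) (hb : b ≤ 1)
    (N : Fin n → Finset (Fin n)) : failAvg b N ≤ failAvg a N := by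
  unfold failAvg
  refine Ex_mono (isProb_bw (by norm_num) (by norm_num)).nonneg fun s => ?_
  rw [Pr_not (sum_bw _), Pr_not (sum_bw _)]
  refine sub_le_sub_left (Pr_bw_mono ha hab hb ?_) 1
  rintro ω ω' h ⟨π, hπ⟩
  refine ⟨π, fun a b hb => ?_⟩
  obtain ⟨h1, h2⟩ := (graphOf_adj _ _ _).1 (hπ a b hb)
  exact (graphOf_adj _ _ _).2 ⟨h1, h _ h2⟩

theorem floor_ge (n χ : ℕ) (hχ : 1 ≤ χ) : (n : ℝ) / (2 * χ) - 1 ≤ ((n / (2 * χ) : ℕ) : ℝ) := by
  have h : n < (2 * χ) * (n / (2 * χ) + 1) := Nat.lt_mul_div_succ n (by omega)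
  have h' : (n : ℝ) < (2 * χ) * (((n / (2 * χ) : ℕ) : ℝ) + 1) := by exact_mod_cast h
  have hχ' : (0 : ℝ) < 2 * χ := by have : (1 : ℝ) ≤ χ := by exact_mod_cast hχ
                                   linarith
  rw [sub_le_iff_le_add, div_le_iff₀ hχ']
  linarith

theorem floor_ge' {x : ℝ} (hx : 1000 ≤ x) (hn : x ^ 10 = n) (χ : ℕ) (hχ : 1 ≤ χ)
    (hχx : (χ : ℝ) ≤ 41 * x) : x ^ 9 / 100 ≤ ((n / (2 * χ) : ℕ) : ℝ) := by
  refine le_trans ?_ (floor_ge n χ hχ)
  have hχ' : (1 : ℝ) ≤ χ := by exact_mod_cast hχ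
  have h1 : x ^ 9 / 82 ≤ (n : ℝ) / (2 * χ) := by
    rw [div_le_div_iff₀ (by norm_num) (by linarith), ← hn]
    have : 0 ≤ x ^ 9 := by positivity
    calc x ^ 9 * (2 * χ) ≤ x ^ 9 * (82 * x) := mul_le_mul_of_nonneg_left (by linarith) this
      _ = x ^ 10 * 82 := by ring
  have h2 : x ≤ x ^ 9 := le_self_pow₀ (by linarith) (by norm_num)
  linarith

/-- The multilayer lemma with the parameters of the dense case. -/
theorem multi' {x r : ℝ} (hx : 1000 ≤ x) (hn : x ^ 10 = n) (hr : 0 < r) (hr1 : 20480 * r ≤ 1)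
    (D : ℕ) (hD1 : 1 ≤ x * r ^ D) (hD2 : 2 ^ D ≤ x) (N : Fin n → Finset (Fin n))
    (V : Finset (Fin n)) (hV : ∀ a, ∀ b ∈ N a, a ∈ V ∧ b ∈ V)
    (hVc : V.card ≤ 2 * (n / 1024 + 1)) (ℓ : Fin n → ℕ) (χ : ℕ) (hχ1 : 1 ≤ χ)
    (hχx : (χ : ℝ) ≤ 41 * x) (hχ : ∀ a, ℓ a < χ) (hℓ : ∀ a, ∀ b ∈ N a, ℓ b < ℓ a)
    (hD : ∀ a, (N a).card ≤ D)
    (hs : ∀ S : Finset (Fin n), S.Nonempty → S.card ≤ D →
      ((Finset.univ.filter (fun a => S ⊆ N a)).card : ℝ) ≤
        ((n / (2 * χ) : ℕ) : ℝ) * (40 * r) ^ S.card) :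
    failAvg (20480 * r) N ≤ 1 / 4 := by
  have hx0 : 0 < x := by linarith
  have hn1 : 1024 ≤ n := by
    have h2 : x ^ 2 ≤ x ^ 10 := pow_le_pow_right₀ (by linarith) (by norm_num)
    have : (1024 : ℝ) ≤ n := by nlinarith
    exact_mod_cast this
  have hm := floor_ge' hx hn χ hχ1 hχx
  set m := n / (2 * χ) with hmdef
  have hmχ : 2 * (χ * m) ≤ n := by
    rw [← mul_assoc]; exact Nat.mul_div_le n (2 * χ)
  have hσ : r ^ D ≤ (10240 * r) ^ D := pow_le_pow_left₀ hr.le (by linarith) D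
  have hy : x ^ 8 / 800 ≤ m * (10240 * r) ^ D / 8 := by
    have h1 : x ^ 9 / 100 * r ^ D ≤ m * (10240 * r) ^ D := by gcongr
    have h2 : x ^ 8 * 1 ≤ x ^ 8 * (x * r ^ D) := by gcongr
    have h3 : x ^ 9 / 100 * r ^ D = x ^ 8 * (x * r ^ D) / 100 := by ring
    linarith
  have hexp : Real.exp (-(m * (10240 * r) ^ D / 8)) ≤ 1280000 / x ^ 16 := by
    have h1 : Real.exp (-(m * (10240 * r) ^ D / 8)) ≤ Real.exp (-(x ^ 8 / 800)) :=
      Real.exp_le_exp.2 (by linarith)
    refine h1.trans ?_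
    have h2 := Real.pow_div_factorial_le_exp (x ^ 8 / 800) (by positivity) 2
    rw [Real.exp_neg, inv_eq_one_div, div_le_div_iff₀ (Real.exp_pos _) (by positivity)]
    have h3 : (x ^ 8 / 800) ^ 2 / ((Nat.factorial 2 : ℕ) : ℝ) = x ^ 16 / 1280000 := by
      rw [Nat.factorial_two]; push_cast; ring
    rw [h3] at h2
    linarith
  have hε : (n : ℝ) * 2 ^ D * Real.exp (-(m * (10240 * r) ^ D / 8)) ≤ 1280000 / x ^ 5 := by
    calc (n : ℝ) * 2 ^ D * Real.exp (-(m * (10240 * r) ^ D / 8))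
        ≤ x ^ 10 * x * (1280000 / x ^ 16) := by rw [← hn]; gcongr
      _ = 1280000 / x ^ 5 := by field_simp
  have hx4 : (1000 : ℝ) ^ 4 ≤ x ^ 4 := by gcongr
  have hfin : 41 * x * (4 * (1280000 / x ^ 5)) ≤ 1 / 4 := by
    have : 41 * x * (4 * (1280000 / x ^ 5)) = 41 * 4 * 1280000 / x ^ 4 := by field_simp
    rw [this, div_le_iff₀ (by positivity)]
    linarith
  have hε1 : 1280000 / x ^ 5 ≤ 1 := by
    rw [div_le_one (by positivity)]
    have : x ^ 4 ≤ x ^ 5 := pow_le_pow_right₀ (by linarith) (by norm_num)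
    linarith
  have key := multilayer N V hV ℓ χ (fun a _ => hχ a) hℓ D hD m (by omega) (10240 * r)
    (by positivity) (by linarith) (by
      intro S hS
      by_cases hSD : S.card ≤ D
      · have : 10240 * r / 256 = 40 * r := by ring
        rw [this]
        exact hs S hS hSD
      · rw [Finset.filter_eq_empty_iff.2]
        · simp only [Finset.card_empty, Nat.cast_zero]; positivity
        · intro a _ h
          exact hSD ((Finset.card_le_card h).trans (hD a))) (hε.trans hε1)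
  calc failAvg (20480 * r) N ≤ failAvg (1 - (1 - 10240 * r) ^ 2) N :=
        failAvg_anti (by nlinarith) (by nlinarith) hr1 N
    _ ≤ _ := key
    _ ≤ 41 * x * (4 * (1280000 / x ^ 5)) := by gcongr
    _ ≤ 1 / 4 := hfin

/-- Codegree bound in the form needed for the two-layer pieces. -/
theorem codeg' {G : SimpleGraph (Fin n)} {x r : ℝ} (h : Spread (slots G) r) (hx : 1000 ≤ x)
    (hn : x ^ 10 = n) (hr : 0 < r) (hr1 : r ≤ 1) (D : ℕ) (hD1 : 1 ≤ x * r ^ D) (hD2 : (D : ℝ) ≤ x)
    (S J : Finset (Fin n)) (hS : S.Nonempty) (hSD : S.card ≤ D)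
    (hSJ : ∀ a ∈ J, ∀ b ∈ S, G.Adj a b) :
    (J.card : ℝ) ≤ ((n / (2 * 2) : ℕ) : ℝ) * (40 * r) ^ S.card := by
  by_contra hcon
  push Not at hcon
  have hx0 : 0 < x := by linarith
  have hm := floor_ge n 2 (by norm_num)
  have hx9 : x ≤ x ^ 9 := le_self_pow₀ (by linarith) (by norm_num)
  have hx10 : x ≤ n := hn ▸ le_self_pow₀ (by linarith) (by norm_num)
  have hm' : (n : ℝ) / 5 ≤ ((n / (2 * 2) : ℕ) : ℝ) := by push_cast at hm ⊢; linarith
  have h40 : 40 * r ^ S.card ≤ (40 * r) ^ S.card := by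
    rw [mul_pow]
    gcongr
    exact le_self_pow₀ (by norm_num) hS.card_pos.ne'
  have hJ : 8 * (n * r ^ S.card) < J.card := by
    calc 8 * (n * r ^ S.card) = (n : ℝ) / 5 * (40 * r ^ S.card) := by ring
      _ ≤ ((n / (2 * 2) : ℕ) : ℝ) * (40 * r) ^ S.card := by gcongr
      _ < _ := hcon
  have hrS : r ^ D ≤ r ^ S.card := pow_le_pow_of_le_one hr.le hr1 hSD
  have hJ2 : x ^ 9 ≤ n * r ^ S.card := by
    calc x ^ 9 = x ^ 9 * 1 := by ring
      _ ≤ x ^ 9 * (x * r ^ D) := by gcongr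
      _ = n * r ^ D := by rw [← hn]; ring
      _ ≤ _ := by gcongr
  have hJ0 : (0 : ℝ) < J.card := by linarith
  have hc := h.codeg hr.le S J hS (Finset.card_pos.1 (by exact_mod_cast hJ0)) hSJ
  have he : Real.exp 1 * Real.exp 1 ≤ 8 := by
    have := Real.exp_one_lt_d9
    have := Real.exp_pos 1
    nlinarith
  have h1 : Real.exp 1 * n * r ^ S.card / J.card ≤ Real.exp (-1) := by
    rw [Real.exp_neg, inv_eq_one_div, div_le_div_iff₀ hJ0 (Real.exp_pos _)]
    have h0 : 0 ≤ n * r ^ S.card := by positivity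
    calc Real.exp 1 * n * r ^ S.card * Real.exp 1
        = (Real.exp 1 * Real.exp 1) * (n * r ^ S.card) := by ring
      _ ≤ 8 * (n * r ^ S.card) := by gcongr
      _ ≤ _ := by linarith
  have h2 : (n : ℝ) ^ S.card ≤ Real.exp (10 * x ^ 2) := by
    have h3 : x ≤ Real.exp x := by linarith [Real.add_one_le_exp x]
    have h4 : (S.card : ℝ) ≤ x := le_trans (by exact_mod_cast hSD) hD2
    calc (n : ℝ) ^ S.card = (x ^ 10) ^ S.card := by rw [hn]
      _ ≤ (Real.exp x ^ 10) ^ S.card := by gcongr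
      _ = Real.exp (S.card * (10 * x)) := by
        rw [Real.exp_nat_mul, ← Real.exp_nat_mul]; norm_num
      _ ≤ _ := Real.exp_le_exp.2 (by nlinarith)
  have h5 : (1 : ℝ) ≤ Real.exp (10 * x ^ 2) * Real.exp (-1) ^ J.card :=
    hc.trans (by gcongr)
  rw [← Real.exp_nat_mul, ← Real.exp_add, Real.one_le_exp_iff] at h5
  have h6 : x ^ 3 ≤ x ^ 9 := pow_le_pow_right₀ (by linarith) (by norm_num)
  nlinarith

theorem exists_box : ∃ B : Finset (ℕ × ℕ × ℕ × ℕ), ∀ a b c d : ℕ,
    a < 3 ∧ b < 40 ∧ c < 1024 ∧ d < 1024 → (a, b, c, d) ∈ B :=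
  ⟨range 3 ×ˢ range 40 ×ˢ range 1024 ×ˢ range 1024, fun a b c d h => by
    simpa only [Finset.mem_product, Finset.mem_range] using h⟩

/-- The labels. -/
noncomputable def box : Finset (ℕ × ℕ × ℕ × ℕ) := exists_box.choose

theorem mem_box (a b c d : ℕ) (h : a < 3 ∧ b < 40 ∧ c < 1024 ∧ d < 1024) : (a, b, c, d) ∈ box :=
  exists_box.choose_spec a b c d h

/-- The arcs with a given label. -/
def piece (N : Fin n → Finset (Fin n)) (lab : Fin n → Fin n → ℕ × ℕ × ℕ × ℕ)
    (i : ℕ × ℕ × ℕ × ℕ) : Fin n → Finset (Fin n) := fun a => (N a).filter (fun b => lab a b = i)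

theorem decomp_sparse {G : SimpleGraph (Fin n)} {r : ℝ} (h : Spread (slots G) r) (hr : 0 < r)
    (hr1 : 20480 * r ≤ 1) (N : Fin n → Finset (Fin n)) (c : Fin n → ℕ)
    (h1 : ∀ a, (N a).card ≤ 20) (h2 : ∀ a, ∀ b ∈ N a, G.Adj a b) (h4 : ∀ a, c a ≤ 20)
    (h5 : ∀ a b, G.Adj a b → c a ≠ c b) :
    ∃ lab : Fin n → Fin n → ℕ × ℕ × ℕ × ℕ, (∀ a, ∀ b ∈ N a, lab a b ∈ box) ∧
      ∀ i, failAvg (20480 * r) (piece N lab i) ≤ 1 / 4 := by
  obtain ⟨idx, hidx⟩ := exists_idx N
  refine ⟨fun a b => (0, idx a b, c a, 0), ?_, ?_⟩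
  · intro a b hb
    have := (hidx a).2 b hb
    have := h1 a
    have := h4 a
    exact mem_box _ _ _ _ (by omega)
  · intro i
    refine star_forest _ ?_ ?_ (slots G) ?_ r _ hr.le (by positivity) hr1 (by linarith) h
    · intro a
      refine Finset.card_le_one.2 fun b hb b' hb' => ?_
      simp only [piece, Finset.mem_filter] at hb hb'
      refine (hidx a).1 hb.1 hb'.1 ?_
      have := hb.2.trans hb'.2.symm
      simp only [Prod.mk.injEq] at this
      exact this.2.1
    · intro a b hb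
      refine Finset.eq_empty_of_forall_notMem fun b' hb' => ?_
      simp only [piece, Finset.mem_filter] at hb hb'
      have := hb.2.trans hb'.2.symm
      simp only [Prod.mk.injEq] at this
      exact h5 a b (h2 a b hb.1) this.2.2.1
    · intro a b hb
      simp only [piece, Finset.mem_filter] at hb
      exact ⟨(h2 a b hb.1).ne, (slot_mem_slots _).2 (h2 a b hb.1)⟩

theorem decomp_dense {G : SimpleGraph (Fin n)} {x r : ℝ} (h : Spread (slots G) r) (hr : 0 < r)
    (hr1 : 20480 * r ≤ 1) (hx : 1000 ≤ x) (hn : x ^ 10 = n) (D : ℕ) (hD0 : 1 ≤ D)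
    (hD1 : 1 ≤ x * r ^ D) (hD2 : 2 ^ D ≤ x) (N : Fin n → Finset (Fin n)) (c : Fin n → ℕ)
    (h1 : ∀ a, (N a).card ≤ 40 * D) (h2 : ∀ a, ∀ b ∈ N a, G.Adj a b) (h4 : ∀ a, c a ≤ 40 * D)
    (h5 : ∀ a b, G.Adj a b → c a ≠ c b) :
    ∃ lab : Fin n → Fin n → ℕ × ℕ × ℕ × ℕ, (∀ a, ∀ b ∈ N a, lab a b ∈ box) ∧
      ∀ i, failAvg (20480 * r) (piece N lab i) ≤ 1 / 4 := by
  classical
  obtain ⟨idx, hidx⟩ := exists_idx N
  have hx0 : 0 < x := by linarith
  have hDx : (D : ℝ) ≤ x := by
    have : (D : ℝ) < 2 ^ D := by exact_mod_cast Nat.lt_two_pow_self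
    linarith
  let X : Finset (Fin n) := Finset.univ.filter
    (fun b => x ^ 7 ≤ ((Finset.univ.filter (fun a => b ∈ N a)).card : ℝ))
  have hX : (X.card : ℝ) ≤ x ^ 7 := by
    have e1 : ∑ b, (Finset.univ.filter (fun a => b ∈ N a)).card = ∑ a, (N a).card := by
      simp only [Finset.card_filter]
      rw [Finset.sum_comm]
      refine Finset.sum_congr rfl fun a _ => ?_
      rw [← Finset.card_filter]
      simp
    have e2 : ∑ a, (N a).card ≤ n * (40 * D) := by
      simpa using Finset.sum_le_card_nsmul Finset.univ _ _ (fun a _ => h1 a)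
    have e3 : (X.card : ℝ) * x ^ 7 ≤
        ∑ b, ((Finset.univ.filter (fun a => b ∈ N a)).card : ℝ) := by
      calc (X.card : ℝ) * x ^ 7 = ∑ _b ∈ X, x ^ 7 := by simp
        _ ≤ ∑ b ∈ X, ((Finset.univ.filter (fun a => b ∈ N a)).card : ℝ) :=
          Finset.sum_le_sum fun b hb => (Finset.mem_filter.1 hb).2
        _ ≤ _ := Finset.sum_le_sum_of_subset_of_nonneg (Finset.subset_univ _)
          (fun _ _ _ => by positivity)
    have e4 : ∑ b, ((Finset.univ.filter (fun a => b ∈ N a)).card : ℝ) ≤ n * (40 * D) := by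
      exact_mod_cast e1.le.trans e2
    have e5 : (X.card : ℝ) * x ^ 7 ≤ x ^ 7 * x ^ 7 := by
      calc (X.card : ℝ) * x ^ 7 ≤ n * (40 * D) := e3.trans e4
        _ ≤ x ^ 10 * (x * x) := by rw [hn]; gcongr; linarith
        _ = x ^ 12 := by ring
        _ ≤ x ^ 14 := pow_le_pow_right₀ (by linarith) (by norm_num)
        _ = _ := by ring
    exact le_of_mul_le_mul_right e5 (by positivity)
  set M := n / 1024 + 1 with hM
  let t : Fin n → Fin n → ℕ := fun a b => if b ∈ X ∧ a ∉ X then 2 else if c b < c a then 0 else 1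
  refine ⟨fun a b => (t a b, idx a b / D, a.val / M, b.val / M), ?_, ?_⟩
  · intro a b hb
    have e1 := (hidx a).2 b hb
    have e2 := h1 a
    have e3 : ∀ v : Fin n, v.val / M < 1024 := fun v =>
      Nat.div_lt_of_lt_mul (by have := v.is_lt; omega)
    refine mem_box _ _ _ _ ⟨?_, Nat.div_lt_of_lt_mul (by omega), e3 a, e3 b⟩
    simp only [t]
    split_ifs <;> omega
  · rintro ⟨t₀, k, u, v⟩
    set N' := piece N (fun a b => (t a b, idx a b / D, a.val / M, b.val / M)) (t₀, k, u, v)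
      with hN'
    have hmem : ∀ a, ∀ b ∈ N' a,
        b ∈ N a ∧ t a b = t₀ ∧ idx a b / D = k ∧ a.val / M = u ∧ b.val / M = v := by
      intro a b hb
      simpa only [hN', piece, Finset.mem_filter, Prod.mk.injEq] using hb
    let V : Finset (Fin n) := Finset.univ.filter (fun w => w.val / M = u) ∪
      Finset.univ.filter (fun w => w.val / M = v)
    have hV : ∀ a, ∀ b ∈ N' a, a ∈ V ∧ b ∈ V := by
      intro a b hb
      have := hmem a b hb
      simp only [V, Finset.mem_union, Finset.mem_filter, Finset.mem_univ, true_and]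
      tauto
    have hVc : V.card ≤ 2 * M := by
      have e : ∀ u, (Finset.univ.filter (fun w : Fin n => w.val / M = u)).card ≤ M := fun u =>
        card_filter_div_le _ _ Fin.val_injective.injOn M u (by omega)
      refine (Finset.card_union_le _ _).trans ?_
      have := e u
      have := e v
      omega
    have hD : ∀ a, (N' a).card ≤ D := by
      intro a
      refine le_trans (Finset.card_le_card ?_) (card_filter_div_le (N a) (idx a) (hidx a).1 D k hD0)
      intro b hb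
      have := hmem a b hb
      exact Finset.mem_filter.2 ⟨this.1, this.2.2.1⟩
    by_cases ht : t₀ = 2
    · refine multi' hx hn hr hr1 D hD1 hD2 N' V hV hVc (fun a => if a ∈ X then 0 else 1) 2
        (by norm_num) (by push_cast; linarith) (fun a => by split_ifs <;> omega) ?_ hD ?_
      · intro a b hb
        have e := (hmem a b hb).2.1
        rw [ht] at e
        simp only [t] at e
        split_ifs at e with e1 e2
        · simp [e1.1, e1.2]
        all_goals omega
      · intro S hS hSD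
        refine codeg' h hx hn hr (by linarith) D hD1 hDx S _ hS hSD ?_
        intro a ha b hb
        exact h2 a b (hmem a b ((Finset.mem_filter.1 ha).2 hb)).1
    · have hχx : ((40 * D + 1 : ℕ) : ℝ) ≤ 41 * x := by push_cast; linarith
      refine multi' hx hn hr hr1 D hD1 hD2 N' V hV hVc
        (fun a => if t₀ = 0 then c a else 40 * D - c a) (40 * D + 1) (by omega) hχx
        (fun a => by have := h4 a; split_ifs <;> omega) ?_ hD ?_
      · intro a b hb
        have e0 := hmem a b hb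
        have e := e0.2.1
        have e3 := h5 a b (h2 a b e0.1)
        have := h4 a
        have := h4 b
        simp only [t] at e
        split_ifs at e ⊢ <;> omega
      · intro S hS hSD
        obtain ⟨b, hb⟩ := hS
        have hlow : ((Finset.univ.filter (fun a => S ⊆ N' a)).card : ℝ) ≤ x ^ 7 := by
          by_cases hbX : b ∈ X
          · refine le_trans ?_ hX
            refine Nat.cast_le.2 (Finset.card_le_card fun a ha => ?_)
            have e := (hmem a b ((Finset.mem_filter.1 ha).2 hb)).2.1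
            by_contra haX
            simp only [t, hbX, haX, not_false_eq_true, and_self, if_true] at e
            exact ht e.symm
          · simp only [X, Finset.mem_filter, Finset.mem_univ, true_and, not_le] at hbX
            refine le_trans ?_ hbX.le
            refine Nat.cast_le.2 (Finset.card_le_card fun a ha => ?_)
            exact Finset.mem_filter.2
              ⟨Finset.mem_univ _, (hmem a b ((Finset.mem_filter.1 ha).2 hb)).1⟩
        refine hlow.trans ?_
        have hm := floor_ge' hx hn (40 * D + 1) (by omega) hχx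
        have e1 : r ^ D ≤ (40 * r) ^ S.card :=
          (pow_le_pow_of_le_one hr.le (by linarith) hSD).trans
            (pow_le_pow_left₀ hr.le (by linarith) _)
        calc x ^ 7 = x ^ 7 * 1 * 1 := by ring
          _ ≤ x ^ 7 * (x / 100) * (x * r ^ D) := by gcongr; linarith
          _ = x ^ 9 / 100 * r ^ D := by ring
          _ ≤ _ := by gcongr

/-- The decomposition theorem. -/
theorem decomp {G : SimpleGraph (Fin n)} {r : ℝ} (h : Spread (slots G) r) (hr : 0 < r)
    (hr1 : 20480 * r ≤ 1) :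
    ∃ (N : Fin n → Finset (Fin n)) (lab : Fin n → Fin n → ℕ × ℕ × ℕ × ℕ),
      (∀ a b, G.Adj a b → b ∈ N a ∨ a ∈ N b) ∧ (∀ a, ∀ b ∈ N a, lab a b ∈ box) ∧
      ∀ i, failAvg (20480 * r) (piece N lab i) ≤ 1 / 4 := by
  classical
  have hex : ∃ D : ℕ, n * r ^ (10 * (D + 1)) < 1 := by
    obtain ⟨D, hD⟩ := exists_pow_lt_of_lt_one (x := 1 / ((n : ℝ) + 1)) (y := r) (by positivity)
      (by linarith)
    refine ⟨D, ?_⟩
    have e1 : r ^ (10 * (D + 1)) ≤ r ^ D := pow_le_pow_of_le_one hr.le (by linarith) (by omega)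
    rw [lt_div_iff₀ (by positivity)] at hD
    have e2 : 0 < r ^ D := by positivity
    have e3 : (n : ℝ) * r ^ (10 * (D + 1)) ≤ n * r ^ D := by gcongr
    nlinarith
  obtain ⟨N, c, h1, h2, h3, h4, h5⟩ := exists_orient G (2 * (10 * (Nat.find hex + 1)))
    (h.dens hr.le (by linarith) _ (Nat.find_spec hex)) Finset.univ
  have h5' : ∀ a b, G.Adj a b → c a ≠ c b := fun a b => h5 a (mem_univ _) b (mem_univ _)
  suffices H : ∃ lab : Fin n → Fin n → ℕ × ℕ × ℕ × ℕ, (∀ a, ∀ b ∈ N a, lab a b ∈ box) ∧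
      ∀ i, failAvg (20480 * r) (piece N lab i) ≤ 1 / 4 by
    obtain ⟨lab, H1⟩ := H
    exact ⟨N, lab, fun a b => h3 a (mem_univ _) b (mem_univ _), H1⟩
  rcases Nat.eq_zero_or_pos (Nat.find hex) with h0 | h0
  · rw [h0] at h1 h4
    exact decomp_sparse h hr hr1 N c h1 h2 h4 h5'
  · have hmin := Nat.find_min hex (m := Nat.find hex - 1) (by omega)
    generalize Nat.find hex = D at *
    rw [show D - 1 + 1 = D by omega, not_lt] at hmin
    obtain ⟨x, hx0, hx⟩ : ∃ x : ℝ, 0 ≤ x ∧ x ^ 10 = n :=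
      ⟨(n : ℝ) ^ (((10 : ℕ) : ℝ)⁻¹), by positivity,
        Real.rpow_inv_natCast_pow (by positivity) (by norm_num)⟩
    have hD1 : 1 ≤ x * r ^ D := by
      by_contra hc
      have := pow_lt_one₀ (by positivity) (not_le.1 hc) (show 10 ≠ 0 by norm_num)
      rw [mul_pow, hx, ← pow_mul, mul_comm D] at this
      linarith
    have hx1 : 1000 ≤ x := by
      have e1 : r ^ D ≤ r := pow_le_of_le_one hr.le (by linarith) h0.ne'
      have e2 : x * r ^ D ≤ x * (1 / 20480) := mul_le_mul_of_nonneg_left (by linarith) hx0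
      linarith
    have hD2 : 2 ^ D ≤ x := by
      have e1 : (2 * r) ^ D ≤ 1 := pow_le_one₀ (by positivity) (by linarith)
      calc (2 : ℝ) ^ D = 2 ^ D * 1 := by ring
        _ ≤ 2 ^ D * (x * r ^ D) := by gcongr
        _ = x * (2 * r) ^ D := by ring
        _ ≤ x * 1 := by gcongr
        _ = x := by ring
    exact decomp_dense h hr hr1 hx1 hx D h0 hD1 hD2 N c (fun a => (h1 a).trans (by omega)) h2
      (fun a => (h4 a).trans (by omega)) h5'

end Crest.Agent.R52G
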